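import Vale.Agent.P091.AD.Base

/-!
# P091, heart, row H1a (helper257): growth of the entropy of `R_J` by a new unit

`R` is a random element of an abelian group with label `w`; `lam` is the labelled law of the new
unit; `(ν, A)` is the population of the `x` in the node with their letters.  If the conditional
density of the letters of `lam` with respect to the population is at most `e^{c1}` and every letter
of `lam` is unexplained at threshold `θ`, then the sum of letters of `lam` raises the entropy of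
`R` by at least `q θ - 1 - c1`.
-/

set_option autoImplicit false

open Finset Real

noncomputable section

namespace Vale.Agent.P091.T.H257

open Vale.Agent.P065.Ent Vale.Agent.P091.AD

section prod
variable {Ω Ω' α β γ δ : Type*} [Fintype Ω] [Fintype Ω']

/-- product weight -/
def prd (μ : Ω → ℝ) (ν : Ω' → ℝ) (w : Ω × Ω') : ℝ := μ w.1 * ν w.2

lemma prd_isProb {μ : Ω → ℝ} {ν : Ω' → ℝ} (hμ : IsProb μ) (hν : IsProb ν) :
    IsProb (prd μ ν) := mul_isProb hμ hν

lemma Pr_prd (μ : Ω → ℝ) (ν : Ω' → ℝ) (X : Ω → α) (Y : Ω' → β) (x : α) (y : β) :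
    Pr (prd μ ν) (fun w => (X w.1, Y w.2)) (x, y) = Pr μ X x * Pr ν Y y := by
  classical
  unfold Pr
  rw [Fintype.sum_prod_type, sum_mul_sum]
  refine sum_congr rfl fun a _ => sum_congr rfl fun b _ => ?_
  unfold prd
  simp only [Prod.mk.injEq]
  by_cases h1 : X a = x
  · by_cases h2 : Y b = y
    · rw [if_pos ⟨h1, h2⟩, if_pos h1, if_pos h2]
    · rw [if_neg fun h => h2 h.2, if_neg h2, mul_zero]
  · rw [if_neg fun h => h1 h.1, if_neg h1, zero_mul]

lemma sum_prd_fst {μ : Ω → ℝ} {ν : Ω' → ℝ} (hν : IsProb ν) (f : Ω → ℝ) :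
    ∑ w, prd μ ν w * f w.1 = ∑ a, μ a * f a := by
  rw [Fintype.sum_prod_type]
  refine sum_congr rfl fun a _ => ?_
  unfold prd
  simp only
  have : ∀ b, μ a * ν b * f a = ν b * (μ a * f a) := fun b => by ring
  rw [sum_congr rfl fun b _ => this b, ← sum_mul, hν.sum, one_mul]

lemma sum_prd_snd {μ : Ω → ℝ} {ν : Ω' → ℝ} (hμ : IsProb μ) (f : Ω' → ℝ) :
    ∑ w, prd μ ν w * f w.2 = ∑ b, ν b * f b := by
  rw [Fintype.sum_prod_type_right]
  refine sum_congr rfl fun b _ => ?_
  unfold prd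
  simp only
  have : ∀ a, μ a * ν b * f b = μ a * (ν b * f b) := fun a => by ring
  rw [sum_congr rfl fun a _ => this a, ← sum_mul, hμ.sum, one_mul]

/-- entropy of a product -/
lemma H_prd {μ : Ω → ℝ} {ν : Ω' → ℝ} (hμ : IsProb μ) (hν : IsProb ν) (X : Ω → α) (Y : Ω' → β) :
    H (prd μ ν) (fun w => (X w.1, Y w.2)) = H μ X + H ν Y := by
  unfold H
  rw [← sum_prd_fst (μ := μ) hν (fun a => - log (Pr μ X (X a))),
    ← sum_prd_snd (ν := ν) hμ (fun b => - log (Pr ν Y (Y b))), ← sum_add_distrib]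
  refine sum_congr rfl fun w _ => ?_
  rw [Pr_prd]
  rcases (mul_nonneg (hμ.nonneg w.1) (hν.nonneg w.2)).eq_or_lt with h0 | h0
  · unfold prd
    rw [← h0]; ring
  · have h1 : 0 < μ w.1 := lt_of_le_of_ne (hμ.nonneg _) fun h => by
      rw [← h, zero_mul] at h0; exact lt_irrefl _ h0
    have h2 : 0 < ν w.2 := lt_of_le_of_ne (hν.nonneg _) fun h => by
      rw [← h, mul_zero] at h0; exact lt_irrefl _ h0
    rw [log_mul (Pr_pos hμ X h1).ne' (Pr_pos hν Y h2).ne']
    ring

lemma H_prd_fst {μ : Ω → ℝ} {ν : Ω' → ℝ} (hμ : IsProb μ) (hν : IsProb ν) (X : Ω → α) :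
    H (prd μ ν) (fun w => X w.1) = H μ X := by
  have h := H_prd hμ hν X (fun _ : Ω' => ())
  rw [H_of_const hν, add_zero] at h
  rw [← h]
  exact H_congr ((Det.refl _).pair (det_const _ ())) (det_fst _ _)

lemma Hc_prd_fst {μ : Ω → ℝ} {ν : Ω' → ℝ} (hμ : IsProb μ) (hν : IsProb ν) (X : Ω → α)
    (Y : Ω → β) : Hc (prd μ ν) (fun w => X w.1) (fun w => Y w.1) = Hc μ X Y := by
  unfold Hc
  rw [H_prd_fst hμ hν Y, ← H_prd_fst hμ hν (fun a => (X a, Y a))]

/-- an independent variable does not help -/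
lemma Hc_prd_indep {μ : Ω → ℝ} {ν : Ω' → ℝ} (hμ : IsProb μ) (hν : IsProb ν) (X : Ω → α)
    (Y : Ω → β) (G : Ω' → γ) :
    Hc (prd μ ν) (fun w => X w.1) (fun w => (Y w.1, G w.2)) = Hc μ X Y := by
  unfold Hc
  have h1 : H (prd μ ν) (fun w => (X w.1, (Y w.1, G w.2))) =
      H (prd μ ν) (fun w => ((X w.1, Y w.1), G w.2)) := by
    refine H_congr ?_ ?_
    · intro u v e
      simp only [Prod.mk.injEq] at e ⊢
      exact ⟨⟨e.1, e.2.1⟩, e.2.2⟩
    · intro u v e
      simp only [Prod.mk.injEq] at e ⊢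
      exact ⟨e.1.1, e.1.2, e.2⟩
  rw [h1, H_prd hμ hν (fun a => (X a, Y a)) G, H_prd hμ hν Y G]
  ring

/-- shifting by a known quantity -/
lemma Hc_shift {Γ : Type*} [AddCommGroup Γ] (μ : Ω → ℝ) (X : Ω → Γ) (Y : Ω → β) (f : Ω → Γ)
    (hf : Det Y f) : Hc μ (fun a => X a + f a) Y = Hc μ X Y := by
  unfold Hc
  congr 1
  refine H_congr ?_ ?_
  · intro u v e
    obtain ⟨e1, e2⟩ := Prod.mk.inj e
    refine Prod.ext ?_ e2
    have e3 := hf u v e2
    show X u = X v
    simp only [e3] at e1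
    exact add_right_cancel e1
  · intro u v e
    obtain ⟨e1, e2⟩ := Prod.mk.inj e
    refine Prod.ext ?_ e2
    show X u + f u = X v + f v
    rw [e1, hf u v e2]

/-- adding an independent summand with its label does not decrease the conditional entropy -/
lemma Hc_add_indep {Γ : Type*} [AddCommGroup Γ] {μ : Ω → ℝ} {ν : Ω' → ℝ} (hμ : IsProb μ)
    (hν : IsProb ν) (X : Ω → Γ) (Y : Ω → β) (f : Ω' → Γ) (g : Ω' → γ) :
    Hc μ X Y ≤ Hc (prd μ ν) (fun w => X w.1 + f w.2) (fun w => (Y w.1, g w.2)) := by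
  have h1 : Hc (prd μ ν) (fun w => X w.1 + f w.2) (fun w => (Y w.1, w.2)) ≤
      Hc (prd μ ν) (fun w => X w.1 + f w.2) (fun w => (Y w.1, g w.2)) :=
    Hc_anti (prd_isProb hμ hν) _ fun u v e => by
      obtain ⟨e1, e2⟩ := Prod.mk.inj e
      exact Prod.ext e1 (by show g u.2 = g v.2; rw [e2])
  refine le_trans (le_of_eq ?_) h1
  rw [Hc_shift (prd μ ν) (fun w => X w.1) (fun w => (Y w.1, w.2)) (fun w => f w.2)
    (fun u v e => by show f u.2 = f v.2; rw [(Prod.mk.inj e).2])]
  exact (Hc_prd_indep hμ hν X Y (fun b : Ω' => b)).symm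

/-- change of the sample space by an equivalence -/
lemma H_equiv (e : Ω' ≃ Ω) (μ : Ω → ℝ) (X : Ω → α) :
    H μ X = H (fun a => μ (e a)) (fun a => X (e a)) := by
  unfold H
  rw [← Equiv.sum_comp e]
  refine sum_congr rfl fun a _ => ?_
  have : ∀ x, Pr μ X x = Pr (fun a => μ (e a)) (fun a => X (e a)) x := fun x => by
    classical
    unfold Pr
    rw [← Equiv.sum_comp e]
  rw [this]

lemma Hc_equiv (e : Ω' ≃ Ω) (μ : Ω → ℝ) (X : Ω → α) (Y : Ω → β) :
    Hc μ X Y = Hc (fun a => μ (e a)) (fun a => X (e a)) (fun a => Y (e a)) := by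
  unfold Hc
  rw [H_equiv e μ Y, H_equiv e μ (fun a => (X a, Y a))]

end prod

/-! ## One letter -/

section one
variable {Γ : Type} [AddCommGroup Γ] (lam : Law Γ)
variable {Ω₂ W : Type} [Fintype Ω₂]

/-- conditional law of `R` given its label -/
def cR (ρ : Ω₂ → ℝ) (R : Ω₂ → Γ) (w : Ω₂ → W) (l : W) (r : Γ) : ℝ :=
  Pr ρ (fun ω => (R ω, w ω)) (r, l) / Pr ρ w l

/-- `α_w(t) = E_x P(R = t - A(x) | w)` -/
def al {X : Type} [Fintype X] (ν : X → ℝ) (A : X → Γ) (ρ : Ω₂ → ℝ) (R : Ω₂ → Γ) (w : Ω₂ → W)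
    (l : W) (t : Γ) : ℝ := ∑ x, ν x * cR ρ R w l (t - A x)

omit [AddCommGroup Γ] in
lemma cR_nonneg {ρ : Ω₂ → ℝ} (hρ : IsProb ρ) (R : Ω₂ → Γ) (w : Ω₂ → W) (l : W) (r : Γ) :
    0 ≤ cR ρ R w l r := div_nonneg (Pr_nonneg hρ _ _) (Pr_nonneg hρ _ _)

lemma al_nonneg {X : Type} [Fintype X] {ν : X → ℝ} (hν : ∀ x, 0 ≤ ν x) (A : X → Γ) {ρ : Ω₂ → ℝ}
    (hρ : IsProb ρ) (R : Ω₂ → Γ) (w : Ω₂ → W) (l : W) (t : Γ) : 0 ≤ al ν A ρ R w l t :=
  sum_nonneg fun x _ => mul_nonneg (hν x) (cR_nonneg hρ R w l _)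

omit [AddCommGroup Γ] in
/-- the sum of a conditional law over a finite set is at most one -/
lemma sum_cR_le {ρ : Ω₂ → ℝ} (hρ : IsProb ρ) (R : Ω₂ → Γ) (w : Ω₂ → W) (l : W)
    (s : Finset Γ) : ∑ r ∈ s, cR ρ R w l r ≤ 1 := by
  classical
  unfold cR
  rw [← sum_div]
  refine div_le_one_of_le₀ ?_ (Pr_nonneg hρ _ _)
  have h1 : ∑ r ∈ s, Pr ρ (fun ω => (R ω, w ω)) (r, l) ≤
      ∑ r ∈ s ∪ univ.image R, Pr ρ (fun ω => (R ω, w ω)) (r, l) :=
    sum_le_sum_of_subset_of_nonneg subset_union_left fun r _ _ => Pr_nonneg hρ _ _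
  have h2 : ∑ r ∈ univ.image R, Pr ρ (fun ω => (R ω, w ω)) (r, l) =
      ∑ r ∈ s ∪ univ.image R, Pr ρ (fun ω => (R ω, w ω)) (r, l) := by
    refine sum_subset subset_union_right fun r _ hr => ?_
    refine Pr_eq_zero _ fun ω hω => hr ?_
    rw [← (Prod.mk.inj hω).1]
    exact mem_image_of_mem _ (mem_univ _)
  rw [sum_Pr_pair] at h2
  linarith

omit [AddCommGroup Γ] in
/-- the density hypothesis for the letters, summed over the letters -/
lemma mix_le {X : Type} [Fintype X] {ν : X → ℝ} (hν : ∀ x, 0 ≤ ν x) (A : X → Γ) (c1 : ℝ)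
    (hd : ∀ ω, 0 < lam.μ ω →
      Pr lam.μ (fun ω => (lam.a ω, lam.z ω)) (lam.a ω, lam.z ω) ≤
        exp c1 * Pr ν A (lam.a ω) * Pr lam.μ lam.z (lam.z ω))
    (z : lam.Z) (f : Γ → ℝ) (hf : ∀ r, 0 ≤ f r) :
    (open Classical in ∑ ω, if lam.z ω = z then lam.μ ω * f (lam.a ω) else 0) ≤
      exp c1 * (∑ x, ν x * f (A x)) * Pr lam.μ lam.z z := by
  classical
  -- group by the value of the letter
  have h1 : (∑ ω, if lam.z ω = z then lam.μ ω * f (lam.a ω) else 0) =
      ∑ g ∈ univ.image lam.a, Pr lam.μ (fun ω => (lam.a ω, lam.z ω)) (g, z) * f g := by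
    unfold Pr
    simp_rw [sum_mul]
    rw [sum_comm]
    refine sum_congr rfl fun ω _ => ?_
    rw [sum_eq_single (lam.a ω)]
    · by_cases hz : lam.z ω = z
      · rw [if_pos hz, if_pos (by rw [hz])]
      · rw [if_neg hz, if_neg (fun h => hz (Prod.mk.inj h).2), zero_mul]
    · intro g _ hg
      rw [if_neg (fun h => hg (Prod.mk.inj h).1.symm), zero_mul]
    · intro h
      exact absurd (mem_image_of_mem _ (mem_univ _)) h
  have h2 : ∀ g ∈ univ.image lam.a, Pr lam.μ (fun ω => (lam.a ω, lam.z ω)) (g, z) * f g ≤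
      exp c1 * (Pr ν A g * f g) * Pr lam.μ lam.z z := by
    intro g _
    by_cases h0 : ∃ ω, 0 < lam.μ ω ∧ lam.a ω = g ∧ lam.z ω = z
    · obtain ⟨ω, h3, h4, h5⟩ := h0
      have := hd ω h3
      rw [h4, h5] at this
      have := mul_le_mul_of_nonneg_right this (hf g)
      linarith
    · have h3 : Pr lam.μ (fun ω => (lam.a ω, lam.z ω)) (g, z) = 0 := by
        unfold Pr
        refine sum_eq_zero fun ω _ => ?_
        by_cases h4 : (lam.a ω, lam.z ω) = (g, z)
        · rw [if_pos h4]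
          by_contra h5
          exact h0 ⟨ω, lt_of_le_of_ne (lam.prob.nonneg ω) (Ne.symm h5), (Prod.mk.inj h4).1,
            (Prod.mk.inj h4).2⟩
        · rw [if_neg h4]
      rw [h3, zero_mul]
      have h6 : 0 ≤ Pr ν A g := by
        unfold Pr
        refine sum_nonneg fun x _ => ?_
        split_ifs
        · exact hν x
        · exact le_rfl
      exact mul_nonneg (mul_nonneg (exp_pos _).le (mul_nonneg h6 (hf g)))
        (Pr_nonneg lam.prob _ _)
  have h3 : ∑ g ∈ univ.image lam.a, Pr ν A g * f g ≤ ∑ x, ν x * f (A x) := by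
    unfold Pr
    simp_rw [sum_mul]
    rw [sum_comm]
    refine sum_le_sum fun x _ => ?_
    by_cases hx : A x ∈ univ.image lam.a
    · rw [sum_eq_single (A x)]
      · rw [if_pos rfl]
      · intro g _ hg
        rw [if_neg (Ne.symm hg), zero_mul]
      · intro h
        exact absurd hx h
    · rw [sum_eq_zero]
      · exact mul_nonneg (hν x) (hf _)
      · intro g hg
        have h7 : A x ≠ g := fun h => hx (by rw [h]; exact hg)
        rw [if_neg h7, zero_mul]
  rw [h1]
  refine (sum_le_sum h2).trans ?_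
  rw [← sum_mul, ← mul_sum]
  exact mul_le_mul_of_nonneg_right (mul_le_mul_of_nonneg_left h3 (exp_pos _).le)
    (Pr_nonneg lam.prob _ _)

end one

/-! ## Growth without labels -/

section growth
variable {Γ : Type} [AddCommGroup Γ] [Fintype Γ] (lam : Law Γ)

omit [AddCommGroup Γ] in
lemma Pr_id (p : Γ → ℝ) (r : Γ) : Pr p (fun g => g) r = p r := by
  classical
  unfold Pr
  refine (sum_eq_single r (fun v _ hv => ?_) (fun h => absurd (mem_univ r) h)).trans ?_
  · exact if_neg hv
  · exact if_pos rfl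

/-- entropy as a sum over the values -/
lemma H_eq_sum {Ω X : Type*} [Fintype Ω] [Fintype X] (μ : Ω → ℝ) (Y : Ω → X) :
    H μ Y = ∑ x, negMulLog (Pr μ Y x) := by
  classical
  have h := sum_fiber μ Y (fun x => - log (Pr μ Y x))
  have h1 : H μ Y = ∑ x ∈ univ.image Y, Pr μ Y x * (- log (Pr μ Y x)) := h
  rw [h1, sum_subset (subset_univ _)]
  · exact sum_congr rfl fun x _ => by unfold negMulLog; ring
  · intro x _ hx
    rw [Pr_eq_zero, zero_mul]
    intro ω hω
    exact hx (by rw [← hω]; exact mem_image_of_mem _ (mem_univ _))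

/-- `α * π` -/
def cv (al p : Γ → ℝ) (k : Γ) : ℝ := ∑ b, al b * p (k - b)

lemma cv_nonneg {al p : Γ → ℝ} (h1 : ∀ a, 0 ≤ al a) (h2 : ∀ a, 0 ≤ p a) (k : Γ) :
    0 ≤ cv al p k := sum_nonneg fun _ _ => mul_nonneg (h1 _) (h2 _)

lemma sum_cv_shift (al p : Γ → ℝ) (c : Γ) :
    ∑ r, cv al p (r + c) = (∑ a, al a) * ∑ r, p r := by
  unfold cv
  rw [sum_comm, sum_mul]
  refine sum_congr rfl fun b _ => ?_
  rw [← mul_sum]
  congr 1
  have := Equiv.sum_comp (Equiv.addRight (c - b)) p
  rw [← this]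
  exact sum_congr rfl fun r _ => by
    simp only [Equiv.coe_addRight]
    congr 1
    abel

/-- the conditional density of the letters, summed -/
lemma mix_cv {al : Γ → ℝ} (hal : ∀ a, 0 ≤ al a) (c1 : ℝ)
    (hd : ∀ ω, 0 < lam.μ ω →
      Pr lam.μ (fun ω => (lam.a ω, lam.z ω)) (lam.a ω, lam.z ω) ≤
        exp c1 * al (lam.a ω) * Pr lam.μ lam.z (lam.z ω))
    {p : Γ → ℝ} (hp : ∀ a, 0 ≤ p a) (z : lam.Z) (t : Γ) :
    (open Classical in ∑ ω, if lam.z ω = z then lam.μ ω * p (t - lam.a ω) else 0) ≤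
      exp c1 * cv al p t * Pr lam.μ lam.z z := by
  have h := mix_le lam hal (fun g => g) c1 (by
    intro ω hω
    rw [Pr_id]
    exact hd ω hω) z (fun g => p (t - g)) (fun _ => hp _)
  exact h

omit [AddCommGroup Γ] [Fintype Γ] in
/-- sum over the first copy -/
lemma sum_cc_left (f : lam.Ω → ℝ) (ω' : lam.Ω) :
    ∑ ω, cc lam.μ lam.z (ω, ω') * f ω =
      lam.μ ω' / Pr lam.μ lam.z (lam.z ω') *
        (open Classical in ∑ ω, if lam.z ω = lam.z ω' then lam.μ ω * f ω else 0) := by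
  classical
  rw [mul_sum]
  refine sum_congr rfl fun ω _ => ?_
  unfold cc
  by_cases h : lam.z ω = lam.z ω'
  · simp only [h, if_true]; ring
  · simp only [h, if_false]; ring

omit [AddCommGroup Γ] [Fintype Γ] in
/-- sum over the second copy -/
lemma sum_cc_right (ω : lam.Ω) : ∑ ω', cc lam.μ lam.z (ω, ω') = lam.μ ω := by
  classical
  unfold cc
  simp only
  by_cases h0 : Pr lam.μ lam.z (lam.z ω) = 0
  · have h1 : lam.μ ω = 0 := le_antisymm (h0 ▸ le_Pr lam.prob lam.z ω) (lam.prob.nonneg ω)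
    simp [h1]
  · have : ∀ ω', (if lam.z ω = lam.z ω' then lam.μ ω * lam.μ ω' / Pr lam.μ lam.z (lam.z ω) else 0)
        = (lam.μ ω / Pr lam.μ lam.z (lam.z ω)) * (if lam.z ω' = lam.z ω then lam.μ ω' else 0) := by
      intro ω'
      by_cases h : lam.z ω = lam.z ω'
      · rw [if_pos h, if_pos h.symm]; ring
      · rw [if_neg h, if_neg (fun e => h e.symm), mul_zero]
    rw [sum_congr rfl fun ω' _ => this ω', ← mul_sum]
    have h2 : ∑ ω', (if lam.z ω' = lam.z ω then lam.μ ω' else 0) = Pr lam.μ lam.z (lam.z ω) := by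
      unfold Pr
      exact sum_congr rfl fun ω' _ => by split_ifs <;> rfl
    rw [h2, div_mul_cancel₀ _ h0]

omit [AddCommGroup Γ] [Fintype Γ] in
/-- positive weight of a pair -/
lemma cc_pos {u : lam.Ω × lam.Ω} (h : 0 < cc lam.μ lam.z u) :
    lam.z u.1 = lam.z u.2 ∧ 0 < lam.μ u.1 ∧ 0 < lam.μ u.2 := by
  classical
  unfold cc at h
  by_cases h1 : lam.z u.1 = lam.z u.2
  · rw [if_pos h1] at h
    refine ⟨h1, ?_, ?_⟩
    · rcases (lam.prob.nonneg u.1).eq_or_lt with h2 | h2
      · rw [← h2] at h; simp at h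
      · exact h2
    · rcases (lam.prob.nonneg u.2).eq_or_lt with h2 | h2
      · rw [← h2] at h; simp at h
      · exact h2
  · rw [if_neg h1] at h
    exact absurd h (lt_irrefl _)

variable {p : Γ → ℝ}

/-- the joint law of `R + a` and `(z, ω')` -/
lemma Pr_TD (t : Γ) (ω' : lam.Ω) :
    Pr (prd p lam.beta) (fun w => (w.1 + lam.a w.2.1, (lam.z w.2.1, w.2.2)))
      (t, (lam.z ω', ω')) =
      lam.μ ω' / Pr lam.μ lam.z (lam.z ω') *
        (open Classical in
          ∑ ω, if lam.z ω = lam.z ω' then lam.μ ω * p (t - lam.a ω) else 0) := by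
  classical
  rw [← sum_cc_left lam (fun ω => p (t - lam.a ω)) ω']
  unfold Pr
  rw [Fintype.sum_prod_type, sum_comm, Fintype.sum_prod_type]
  refine sum_congr rfl fun ω _ => ?_
  rw [sum_eq_single ω']
  · rw [sum_eq_single (t - lam.a ω)]
    · by_cases hz : lam.z ω = lam.z ω'
      · rw [if_pos (by simp [hz])]
        unfold prd Law.beta
        ring
      · have : cc lam.μ lam.z (ω, ω') = 0 := by unfold cc; rw [if_neg hz]
        rw [if_neg (fun h => hz (Prod.mk.inj (Prod.mk.inj h).2).1), this, zero_mul]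
    · intro r _ hr
      rw [if_neg]
      intro h
      have := (Prod.mk.inj h).1
      simp only at this
      exact hr (by rw [← this]; abel)
    · intro h; exact absurd (mem_univ _) h
  · intro ω'' _ h
    refine sum_eq_zero fun r _ => ?_
    rw [if_neg fun h' => h (Prod.mk.inj (Prod.mk.inj h').2).2]
  · intro h; exact absurd (mem_univ _) h

omit [AddCommGroup Γ] in
/-- the law of `(z, ω')` -/
lemma Pr_D (hp : IsProb p) {ω' : lam.Ω} (h0 : 0 < lam.μ ω') :
    Pr (prd p lam.beta) (fun w => (lam.z w.2.1, w.2.2)) (lam.z ω', ω') = lam.μ ω' := by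
  classical
  have h1 : 0 < Pr lam.μ lam.z (lam.z ω') := Pr_pos lam.prob lam.z h0
  have h2 : Pr (prd p lam.beta) (fun w => (lam.z w.2.1, w.2.2)) (lam.z ω', ω') =
      ∑ ω, cc lam.μ lam.z (ω, ω') * 1 := by
    unfold Pr
    rw [Fintype.sum_prod_type, sum_comm, Fintype.sum_prod_type]
    refine sum_congr rfl fun ω _ => ?_
    rw [sum_eq_single ω']
    · by_cases hz : lam.z ω = lam.z ω'
      · refine (sum_congr (g := fun r => p r * lam.beta (ω, ω')) rfl fun r _ => ?_).trans ?_
        · rw [if_pos (by show (lam.z ω, ω') = (lam.z ω', ω'); rw [hz])]; rfl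
        · rw [← sum_mul, hp.sum, one_mul, mul_one]
          rfl
      · have : cc lam.μ lam.z (ω, ω') = 0 := by unfold cc; rw [if_neg hz]
        rw [this, zero_mul]
        refine sum_eq_zero fun r _ => ?_
        rw [if_neg fun h => hz (Prod.mk.inj h).1]
    · intro ω'' _ h
      refine sum_eq_zero fun r _ => ?_
      rw [if_neg fun h' => h (Prod.mk.inj h').2]
    · intro h; exact absurd (mem_univ _) h
  rw [h2, sum_cc_left lam (fun _ => 1) ω']
  have h3 : (∑ ω, if lam.z ω = lam.z ω' then lam.μ ω * 1 else 0) = Pr lam.μ lam.z (lam.z ω') := by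
    unfold Pr
    exact sum_congr rfl fun ω _ => by split_ifs <;> simp
  rw [h3, div_mul_cancel₀ _ h1.ne']

/-- the law of `R + N` -/
lemma Pr_RN (k : Γ) :
    Pr (prd p lam.beta) (fun w => w.1 + lam.N w.2) k = ∑ b, p (k - b) * Pr lam.beta lam.N b := by
  classical
  unfold Pr
  simp_rw [mul_sum]
  rw [Fintype.sum_prod_type, sum_comm, sum_comm (s := (univ : Finset Γ))]
  refine sum_congr rfl fun u _ => ?_
  rw [sum_eq_single (k - lam.N u), sum_eq_single (lam.N u)]
  · rw [if_pos rfl, if_pos (sub_add_cancel k (lam.N u))]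
    rfl
  · intro b _ hb
    rw [if_neg (Ne.symm hb), mul_zero]
  · intro h; exact absurd (mem_univ _) h
  · intro r _ hr
    rw [if_neg]
    intro h
    exact hr (eq_sub_of_add_eq h)
  · intro h; exact absurd (mem_univ _) h

/-- the pointwise estimate: unexplained letters give `q θ - 1` -/
lemma letter_gain {al : Γ → ℝ} (hal : ∀ a, 0 ≤ al a) (hal1 : ∑ a, al a ≤ 1) (hp : IsProb p)
    {θ q : ℝ} (hθ : 0 ≤ θ) {c : Γ} (hc : 0 < al c)
    (hu : q ≤ (open Classical in
      ∑ k, if exp θ * cv al p k < p (k - c) then p (k - c) else 0)) :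
    q * θ - 1 ≤ ∑ r, p r * log (p r / cv al p (r + c)) := by
  classical
  have h1 : ∀ r, θ * (if exp θ * cv al p (r + c) < p r then p r else 0) - cv al p (r + c) ≤
      p r * log (p r / cv al p (r + c)) := by
    intro r
    rcases (hp.nonneg r).eq_or_lt with h0 | h0
    · rw [← h0, zero_mul, ite_self, mul_zero]
      have := cv_nonneg hal hp.nonneg (r + c)
      linarith
    · have hg : 0 < cv al p (r + c) := by
        refine lt_of_lt_of_le (mul_pos hc h0) ?_
        have := single_le_sum (f := fun b => al b * p (r + c - b))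
          (fun b _ => mul_nonneg (hal b) (hp.nonneg _)) (mem_univ c)
        simp only [add_sub_cancel_right] at this
        exact this
      by_cases h2 : exp θ * cv al p (r + c) < p r
      · rw [if_pos h2]
        have h3 : θ ≤ log (p r / cv al p (r + c)) := by
          rw [le_log_iff_exp_le (div_pos h0 hg), le_div_iff₀ hg]
          exact h2.le
        have := mul_le_mul_of_nonneg_left h3 h0.le
        linarith
      · rw [if_neg h2, mul_zero, zero_sub]
        have h3 := one_sub_inv_le_log_of_pos (div_pos h0 hg)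
        have h4 := mul_le_mul_of_nonneg_left h3 h0.le
        have h5 : p r * (1 - (p r / cv al p (r + c))⁻¹) = p r - cv al p (r + c) := by
          field_simp
        rw [h5] at h4
        linarith
  have h2 := sum_le_sum fun r (_ : r ∈ (univ : Finset Γ)) => h1 r
  rw [sum_sub_distrib, ← mul_sum, sum_cv_shift, hp.sum, mul_one] at h2
  have h3 : (∑ r, if exp θ * cv al p (r + c) < p r then p r else 0) =
      ∑ k, if exp θ * cv al p k < p (k - c) then p (k - c) else 0 := by
    rw [← Equiv.sum_comp (Equiv.addRight c)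
      (fun k => if exp θ * cv al p k < p (k - c) then p (k - c) else 0)]
    refine sum_congr rfl fun r _ => ?_
    simp only [Equiv.coe_addRight, add_sub_cancel_right]
  rw [h3] at h2
  have h4 := mul_le_mul_of_nonneg_left hu hθ
  linarith

/-- **Growth**: a unit whose letters are unexplained raises the entropy of `R`. -/
theorem growth_H {al : Γ → ℝ} (hal : ∀ a, 0 ≤ al a) (hal1 : ∑ a, al a ≤ 1) (hp : IsProb p)
    {θ q c1 : ℝ} (hθ : 0 ≤ θ)
    (hd : ∀ ω, 0 < lam.μ ω →
      Pr lam.μ (fun ω => (lam.a ω, lam.z ω)) (lam.a ω, lam.z ω) ≤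
        exp c1 * al (lam.a ω) * Pr lam.μ lam.z (lam.z ω))
    (hu : ∀ ω, 0 < lam.μ ω → q ≤ (open Classical in
      ∑ k, if exp θ * cv al p k < p (k - lam.a ω) then p (k - lam.a ω) else 0)) :
    q * θ - 1 - c1 ≤ H (prd p lam.beta) (fun w => w.1 + lam.N w.2) - H p (fun r => r) := by
  classical
  have hb : IsProb lam.beta := lam.beta_isProb
  have hm : IsProb (prd p lam.beta) := prd_isProb hp hb
  have hal' : ∀ ω, 0 < lam.μ ω → 0 < al (lam.a ω) := by
    intro ω hω
    have h1 : 0 < Pr lam.μ (fun ω => (lam.a ω, lam.z ω)) (lam.a ω, lam.z ω) :=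
      Pr_pos lam.prob (fun ω => (lam.a ω, lam.z ω)) hω
    have h2 := h1.trans_le (hd ω hω)
    rcases (hal (lam.a ω)).eq_or_lt with h3 | h3
    · rw [← h3] at h2; simp at h2
    · exact h3
  -- condition on the label and on the second copy
  have e1 : Hc (prd p lam.beta) (fun w => w.1 + lam.a w.2.1) (fun w => (lam.z w.2.1, w.2.2)) ≤
      H (prd p lam.beta) (fun w => w.1 + lam.N w.2) := by
    have h1 := Hc_le_H hm (fun w : Γ × lam.Lt => w.1 + lam.N w.2)
      (fun w => (lam.z w.2.1, w.2.2))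
    have h2 := Hc_shift (prd p lam.beta) (fun w : Γ × lam.Lt => w.1 + lam.a w.2.1)
      (fun w => (lam.z w.2.1, w.2.2)) (fun w => - lam.a w.2.2)
      (fun u v e => by
        have := (Prod.mk.inj e).2
        show - lam.a u.2.2 = - lam.a v.2.2
        rw [this])
    rw [← h2]
    refine le_trans (le_of_eq ?_) h1
    congr 1
    funext w
    show w.1 + lam.a w.2.1 + - lam.a w.2.2 = w.1 + (lam.a w.2.1 - lam.a w.2.2)
    abel
  -- pointwise lower bound
  have e2 : ∀ w : Γ × lam.Lt, prd p lam.beta w * (- c1 - log (cv al p (w.1 + lam.a w.2.1))) ≤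
      prd p lam.beta w *
      (- log (Pr (prd p lam.beta) (fun w => (w.1 + lam.a w.2.1, (lam.z w.2.1, w.2.2)))
        (w.1 + lam.a w.2.1, (lam.z w.2.1, w.2.2)) /
        Pr (prd p lam.beta) (fun w => (lam.z w.2.1, w.2.2)) (lam.z w.2.1, w.2.2))) := by
    intro w
    rcases (hm.nonneg w).eq_or_lt with h0 | h0
    · rw [← h0, zero_mul, zero_mul]
    · refine mul_le_mul_of_nonneg_left ?_ h0.le
      have hbw : 0 < lam.beta w.2 := by
        rcases (hb.nonneg w.2).eq_or_lt with h | h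
        · unfold prd at h0; rw [← h, mul_zero] at h0; exact absurd h0 (lt_irrefl _)
        · exact h
      have hpw : 0 < p w.1 := by
        rcases (hp.nonneg w.1).eq_or_lt with h | h
        · unfold prd at h0; rw [← h, zero_mul] at h0; exact absurd h0 (lt_irrefl _)
        · exact h
      obtain ⟨hz, h1, h2⟩ := cc_pos lam (u := w.2) hbw
      have h3 : 0 < Pr lam.μ lam.z (lam.z w.2.2) := Pr_pos lam.prob lam.z h2
      have hPr : 0 < Pr (prd p lam.beta)
          (fun w => (w.1 + lam.a w.2.1, (lam.z w.2.1, w.2.2)))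
          (w.1 + lam.a w.2.1, (lam.z w.2.1, w.2.2)) :=
        Pr_pos hm (fun w : Γ × lam.Lt => (w.1 + lam.a w.2.1, (lam.z w.2.1, w.2.2))) h0
      rw [hz] at hPr ⊢
      rw [Pr_D lam hp h2]
      have hg : 0 < cv al p (w.1 + lam.a w.2.1) := by
        refine lt_of_lt_of_le (mul_pos (hal' _ h1) hpw) ?_
        have := single_le_sum (f := fun b => al b * p (w.1 + lam.a w.2.1 - b))
          (fun b _ => mul_nonneg (hal b) (hp.nonneg _)) (mem_univ (lam.a w.2.1))
        simp only [add_sub_cancel_right] at this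
        exact this
      have h4 : Pr (prd p lam.beta) (fun w => (w.1 + lam.a w.2.1, (lam.z w.2.1, w.2.2)))
          (w.1 + lam.a w.2.1, (lam.z w.2.2, w.2.2)) / lam.μ w.2.2 ≤
          exp c1 * cv al p (w.1 + lam.a w.2.1) := by
        rw [div_le_iff₀ h2, Pr_TD]
        have h5 := mix_cv lam hal c1 hd hp.nonneg (lam.z w.2.2) (w.1 + lam.a w.2.1)
        have h6 := mul_le_mul_of_nonneg_left h5
          (div_nonneg (lam.prob.nonneg w.2.2) h3.le)
        refine h6.trans (le_of_eq ?_)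
        field_simp
      have h7 := log_le_log (div_pos hPr h2) h4
      rw [log_mul (exp_pos _).ne' hg.ne', log_exp] at h7
      linarith
  have e3 := sum_le_sum fun w (_ : w ∈ (univ : Finset (Γ × lam.Lt))) => e2 w
  rw [← Hc_eq_sum hm (fun w : Γ × lam.Lt => w.1 + lam.a w.2.1)
    (fun w => (lam.z w.2.1, w.2.2))] at e3
  -- entropy of `R`
  have e4 : H p (fun r => r) = ∑ w : Γ × lam.Lt, prd p lam.beta w * (- log (p w.1)) := by
    rw [sum_prd_fst (ν := lam.beta) hb (fun r => - log (p r))]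
    unfold H
    exact sum_congr rfl fun r _ => by rw [Pr_id]
  have e5 : (∑ w : Γ × lam.Lt, prd p lam.beta w * (- c1 - log (cv al p (w.1 + lam.a w.2.1)))) -
      H p (fun r => r) =
      - c1 + ∑ ω, lam.μ ω * ∑ r, p r * log (p r / cv al p (r + lam.a ω)) := by
    have h1 : (∑ w : Γ × lam.Lt, prd p lam.beta w) = 1 := hm.sum
    have h2 : (∑ ω, lam.μ ω * ∑ r, p r * log (p r / cv al p (r + lam.a ω))) =
        ∑ w : Γ × lam.Lt, prd p lam.beta w * log (p w.1 / cv al p (w.1 + lam.a w.2.1)) := by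
      rw [Fintype.sum_prod_type, sum_comm, Fintype.sum_prod_type]
      refine sum_congr rfl fun ω _ => ?_
      have h3 : ∀ ω', (∑ r, prd p lam.beta (r, (ω, ω')) *
          log (p r / cv al p (r + lam.a ω))) =
          cc lam.μ lam.z (ω, ω') * ∑ r, p r * log (p r / cv al p (r + lam.a ω)) := by
        intro ω'
        rw [mul_sum]
        refine sum_congr rfl fun r _ => ?_
        unfold prd Law.beta
        ring
      refine Eq.trans ?_ (sum_congr rfl fun ω' _ => (h3 ω').symm)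
      rw [← sum_mul, sum_cc_right]
    rw [h2, e4, ← sum_sub_distrib]
    have h4 : - c1 = ∑ w : Γ × lam.Lt, prd p lam.beta w * (- c1) := by
      rw [← sum_mul, h1, one_mul]
    have h5 : ∀ w : Γ × lam.Lt,
        prd p lam.beta w * (- c1 - log (cv al p (w.1 + lam.a w.2.1))) -
          prd p lam.beta w * (- log (p w.1)) = prd p lam.beta w * (- c1) +
          prd p lam.beta w * log (p w.1 / cv al p (w.1 + lam.a w.2.1)) := ?_
    · rw [sum_congr rfl fun w _ => h5 w, sum_add_distrib, ← h4]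
    intro w
    rcases (hm.nonneg w).eq_or_lt with h0 | h0
    · rw [← h0]; ring
    · have hbw : 0 < lam.beta w.2 := by
        rcases (hb.nonneg w.2).eq_or_lt with h | h
        · unfold prd at h0; rw [← h, mul_zero] at h0; exact absurd h0 (lt_irrefl _)
        · exact h
      have hpw : 0 < p w.1 := by
        rcases (hp.nonneg w.1).eq_or_lt with h | h
        · unfold prd at h0; rw [← h, zero_mul] at h0; exact absurd h0 (lt_irrefl _)
        · exact h
      obtain ⟨_, h1, _⟩ := cc_pos lam (u := w.2) hbw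
      have hg : 0 < cv al p (w.1 + lam.a w.2.1) := by
        refine lt_of_lt_of_le (mul_pos (hal' _ h1) hpw) ?_
        have := single_le_sum (f := fun b => al b * p (w.1 + lam.a w.2.1 - b))
          (fun b _ => mul_nonneg (hal b) (hp.nonneg _)) (mem_univ (lam.a w.2.1))
        simp only [add_sub_cancel_right] at this
        exact this
      rw [log_div hpw.ne' hg.ne']
      ring
  -- the letters
  have e6 : q * θ - 1 ≤ ∑ ω, lam.μ ω * ∑ r, p r * log (p r / cv al p (r + lam.a ω)) := by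
    have h1 : q * θ - 1 = ∑ ω, lam.μ ω * (q * θ - 1) := by
      rw [← sum_mul, lam.prob.sum, one_mul]
    rw [h1]
    refine sum_le_sum fun ω _ => ?_
    rcases (lam.prob.nonneg ω).eq_or_lt with h0 | h0
    · rw [← h0, zero_mul, zero_mul]
    · exact mul_le_mul_of_nonneg_left
        (letter_gain hal hal1 hp hθ (hal' ω h0) (hu ω h0)) h0.le
  linarith

/-- **Growth**, in terms of laws on the group. -/
theorem growth {al : Γ → ℝ} (hal : ∀ a, 0 ≤ al a) (hal1 : ∑ a, al a ≤ 1) (hp : IsProb p)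
    {θ q c1 : ℝ} (hθ : 0 ≤ θ)
    (hd : ∀ ω, 0 < lam.μ ω →
      Pr lam.μ (fun ω => (lam.a ω, lam.z ω)) (lam.a ω, lam.z ω) ≤
        exp c1 * al (lam.a ω) * Pr lam.μ lam.z (lam.z ω))
    (hu : ∀ ω, 0 < lam.μ ω → q ≤ (open Classical in
      ∑ k, if exp θ * cv al p k < p (k - lam.a ω) then p (k - lam.a ω) else 0)) :
    q * θ - 1 - c1 ≤ (∑ k, negMulLog (∑ b, p (k - b) * Pr lam.beta lam.N b)) -
      ∑ k, negMulLog (p k) := by
  have h := growth_H lam hal hal1 hp hθ hd hu
  rw [H_eq_sum, H_eq_sum] at h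
  simp only [Pr_RN, Pr_id] at h
  exact h

end growth

end Vale.Agent.P091.T.H257
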