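import Vale.Agent.P091.T.H257.Growth

/-!
# P091, heart, row H1 (helper257): Parseval count, dyadic level sets, the density hypothesis

Everything here is elementary and definition-free.
-/

set_option autoImplicit false

open Finset Real

noncomputable section

namespace Vale.Agent.P091.T.H257

open Vale.Agent.P065.Ent Vale.Agent.P091.AD

section parseval
variable {G : Type*} [AddCommGroup G] [Fintype G]

/-- orthogonality of the characters in a finite set -/
lemma sum_char_mul (a b : AddChar G ℂ) [Decidable (a = b)] :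
    ∑ y, a y * (starRingEnd ℂ) (b y) = if a = b then (Fintype.card G : ℂ) else 0 := by
  classical
  have h1 : ∀ y, a y * (starRingEnd ℂ) (b y) = (a - b) y := fun y => by
    rw [AddChar.sub_apply, AddChar.map_neg_eq_conj]
  rw [sum_congr rfl fun y _ => h1 y, AddChar.sum_eq_ite]
  by_cases h : a = b
  · rw [if_pos h, if_pos (by rw [h, sub_self])]
  · rw [if_neg h, if_neg (fun e => h (sub_eq_zero.1 e))]

/-- **Parseval count** -/
theorem card_mul_sq_le {A : Finset (AddChar G ℂ)} {μ : G → ℝ} (hμ : IsProb μ) {σ R : ℝ}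
    (hσ : 0 ≤ σ) (hR : ∀ y, (Fintype.card G : ℝ) * μ y ≤ exp R)
    (hA : ∀ a ∈ A, σ ≤ ‖∑ y, (μ y : ℂ) * a y‖) : (A.card : ℝ) * σ ^ 2 ≤ exp R := by
  classical
  set c : AddChar G ℂ → ℂ := fun a => ∑ y, (μ y : ℂ) * a y with hc
  set T : G → ℂ := fun y => ∑ a ∈ A, (starRingEnd ℂ) (c a) * a y with hT
  set S : ℝ := ∑ a ∈ A, ‖c a‖ ^ 2 with hS
  have h1 : (S : ℂ) = ∑ y, (μ y : ℂ) * T y := by
    rw [hS]
    push_cast
    simp only [hT, mul_sum]
    rw [sum_comm]
    refine sum_congr rfl fun a _ => ?_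
    have h2 : ((‖c a‖ : ℂ)) ^ 2 = (starRingEnd ℂ) (c a) * c a := by
      rw [mul_comm, Complex.mul_conj, Complex.normSq_eq_norm_sq]
      push_cast
      rfl
    rw [h2]
    nth_rewrite 2 [hc]
    simp only
    rw [mul_sum]
    exact sum_congr rfl fun y _ => by ring
  have h2 : ∑ y, ‖T y‖ ^ 2 = (Fintype.card G : ℝ) * S := by
    have h3 : ∀ y, ((‖T y‖ ^ 2 : ℝ) : ℂ) = ∑ a ∈ A, ∑ b ∈ A,
        (starRingEnd ℂ) (c a) * c b * (a y * (starRingEnd ℂ) (b y)) := by
      intro y
      push_cast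
      have h4 : ((‖T y‖ : ℂ)) ^ 2 = T y * (starRingEnd ℂ) (T y) := by
        rw [Complex.mul_conj, Complex.normSq_eq_norm_sq]
        push_cast
        rfl
      rw [h4, hT]
      simp only [map_sum, map_mul, Complex.conj_conj]
      rw [sum_mul_sum]
      exact sum_congr rfl fun a _ => sum_congr rfl fun b _ => by ring
    have h5 : ((∑ y, ‖T y‖ ^ 2 : ℝ) : ℂ) = (((Fintype.card G : ℝ) * S : ℝ) : ℂ) := by
      rw [Complex.ofReal_sum, sum_congr rfl fun y _ => h3 y, sum_comm]
      rw [hS]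
      push_cast
      rw [mul_sum]
      refine sum_congr rfl fun a ha => ?_
      rw [sum_comm]
      rw [sum_congr rfl fun b _ => (mul_sum _ _ _).symm]
      rw [sum_congr rfl fun b _ => by rw [sum_char_mul a b]]
      rw [sum_eq_single_of_mem a ha]
      · rw [if_pos rfl]
        have h6 : ((‖c a‖ : ℂ)) ^ 2 = (starRingEnd ℂ) (c a) * c a := by
          rw [mul_comm, Complex.mul_conj, Complex.normSq_eq_norm_sq]
          push_cast
          rfl
        rw [h6]; ring
      · intro b _ hb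
        rw [if_neg (Ne.symm hb), mul_zero]
    exact_mod_cast h5
  have h3 : S ≤ ∑ y, μ y * ‖T y‖ := by
    have h4 : ‖(S : ℂ)‖ ≤ ∑ y, μ y * ‖T y‖ := by
      rw [h1]
      refine (norm_sum_le _ _).trans (sum_le_sum fun y _ => ?_)
      rw [norm_mul, Complex.norm_real, norm_eq_abs, abs_of_nonneg (hμ.nonneg y)]
    rw [Complex.norm_real, norm_eq_abs] at h4
    exact (le_abs_self S).trans h4
  have h4 : (∑ y, μ y * ‖T y‖) ^ 2 ≤ (∑ y, μ y ^ 2) * ∑ y, ‖T y‖ ^ 2 :=
    sum_mul_sq_le_sq_mul_sq univ μ fun y => ‖T y‖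
  have hS0 : 0 ≤ S := sum_nonneg fun _ _ => sq_nonneg _
  have h5 : S ≤ (Fintype.card G : ℝ) * ∑ y, μ y ^ 2 := by
    rcases hS0.eq_or_lt with h0 | h0
    · rw [← h0]
      exact mul_nonneg (Nat.cast_nonneg _) (sum_nonneg fun _ _ => sq_nonneg _)
    · have h6 : S ^ 2 ≤ (∑ y, μ y ^ 2) * ((Fintype.card G : ℝ) * S) := by
        rw [← h2]
        exact (pow_le_pow_left₀ hS0 h3 2).trans h4
      have h7 : S * S ≤ ((Fintype.card G : ℝ) * ∑ y, μ y ^ 2) * S := by nlinarith
      exact le_of_mul_le_mul_right h7 h0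
  have h6 : (Fintype.card G : ℝ) * ∑ y, μ y ^ 2 ≤ exp R := by
    rw [mul_sum]
    have h7 : ∀ y, (Fintype.card G : ℝ) * μ y ^ 2 ≤ μ y * exp R := fun y => by
      have := mul_le_mul_of_nonneg_left (hR y) (hμ.nonneg y)
      nlinarith
    refine (sum_le_sum fun y _ => h7 y).trans ?_
    rw [← sum_mul, hμ.sum, one_mul]
  have h7 : (A.card : ℝ) * σ ^ 2 ≤ S := by
    rw [← nsmul_eq_mul]
    exact card_nsmul_le_sum _ _ _ fun a ha => pow_le_pow_left₀ hσ (hA a ha) 2
  linarith

end parseval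

section level
variable {Γ : Type*}

/-- **Dyadic level set** of a weight on a finite set -/
theorem exists_level {al : Γ → ℝ} (A : Finset Γ) (hal : ∀ a ∈ A, 0 ≤ al a) {M : ℝ}
    (hM : (A.card : ℝ) ≤ exp M) (hA : 0 < ∑ a ∈ A, al a) :
    ∃ A' ⊆ A, A'.Nonempty ∧ ∑ a ∈ A, al a ≤ (4 * M + 4) * ∑ a ∈ A', al a ∧
      ∀ a ∈ A', ∑ b ∈ A', al b ≤ 2 * A'.card * al a := by
  classical
  set S : ℝ := ∑ a ∈ A, al a with hS
  have hne : A.Nonempty := by
    rw [nonempty_iff_ne_empty]
    intro h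
    rw [hS, h, sum_empty] at hA
    exact lt_irrefl _ hA
  have hcard : 0 < A.card := hne.card_pos
  have hcard' : (1 : ℝ) ≤ A.card := by exact_mod_cast hcard
  have hc0 : (0 : ℝ) < A.card := by linarith
  have h20 : (0 : ℝ) < 2 * A.card := by linarith
  have aux : ∀ c S : ℝ, 0 < c → c * (S / (2 * c)) = S / 2 := fun c S hc => by field_simp
  have hM0 : 0 ≤ M := by
    have : exp 0 ≤ exp M := by rw [exp_zero]; linarith
    exact exp_le_exp.1 this
  -- the heavy elements
  set B : Finset Γ := A.filter fun a => S ≤ 2 * A.card * al a with hB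
  have hBpos : ∀ a ∈ B, 0 < al a := by
    intro a ha
    have h1 := (mem_filter.1 ha).2
    by_contra h
    push Not at h
    have : 2 * (A.card : ℝ) * al a ≤ 0 := mul_nonpos_of_nonneg_of_nonpos h20.le h
    linarith
  have hBS : S / 2 ≤ ∑ a ∈ B, al a := by
    have h1 : S = ∑ a ∈ B, al a + ∑ a ∈ A.filter (fun a => ¬ S ≤ 2 * A.card * al a), al a := by
      rw [hS, hB]; exact (sum_filter_add_sum_filter_not A _ _).symm
    have h2 : ∑ a ∈ A.filter (fun a => ¬ S ≤ 2 * A.card * al a), al a ≤ S / 2 := by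
      have h3 : ∀ a ∈ A.filter (fun a => ¬ S ≤ 2 * A.card * al a), al a ≤ S / (2 * A.card) := by
        intro a ha
        have := (mem_filter.1 ha).2
        push Not at this
        rw [le_div_iff₀ h20]
        linarith
      refine (sum_le_card_nsmul _ _ _ h3).trans ?_
      rw [nsmul_eq_mul]
      have h4 : ((A.filter (fun a => ¬ S ≤ 2 * A.card * al a)).card : ℝ) ≤ A.card := by
        exact_mod_cast card_filter_le _ _
      have h5 : 0 ≤ S / (2 * (A.card : ℝ)) := div_nonneg hA.le h20.le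
      have h6 := mul_le_mul_of_nonneg_right h4 h5
      have h7 : (A.card : ℝ) * (S / (2 * (A.card : ℝ))) = S / 2 := aux _ _ hc0
      linarith
    linarith
  -- the level of an element
  set ℓ : Γ → ℕ := fun a => ⌊log (S / al a) / log 2⌋₊ with hℓ
  set K : ℕ := ⌊(M + log 2) / log 2⌋₊ + 1 with hK
  have hlog2 : 0 < log 2 := log_pos (by norm_num)
  have hle : ∀ a ∈ B, al a ≤ S := fun a ha =>
    single_le_sum (f := al) hal (mem_filter.1 ha).1
  have hmem : ∀ a ∈ B, ℓ a ∈ range K := by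
    intro a ha
    rw [mem_range, hK, Nat.lt_succ_iff]
    refine Nat.floor_mono ?_
    rw [div_le_div_iff_of_pos_right hlog2]
    have h1 : S / al a ≤ exp M * 2 := by
      rw [div_le_iff₀ (hBpos a ha)]
      have h2 := (mem_filter.1 ha).2
      have h3 := mul_le_mul_of_nonneg_right hM (hBpos a ha).le
      nlinarith
    have h2 := log_le_log (div_pos hA (hBpos a ha)) h1
    rwa [log_mul (exp_pos _).ne' (by norm_num), log_exp] at h2
  have hKpos : (0 : ℝ) < K := by
    have : 0 < K := by omega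
    exact_mod_cast this
  have hsum : ∑ i ∈ range K, ∑ a ∈ B.filter (fun a => ℓ a = i), al a = ∑ a ∈ B, al a :=
    sum_fiberwise_of_maps_to hmem _
  obtain ⟨i, _, hi⟩ : ∃ i ∈ range K, S / (2 * K) ≤ ∑ a ∈ B.filter (fun a => ℓ a = i), al a := by
    refine exists_le_of_sum_le (nonempty_range_iff.2 (by omega)) ?_
    rw [hsum, sum_const, card_range, nsmul_eq_mul]
    have : (K : ℝ) * (S / (2 * K)) = S / 2 := aux _ _ hKpos
    linarith
  set A' : Finset Γ := B.filter (fun a => ℓ a = i) with hA'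
  have hA'pos : 0 < ∑ a ∈ A', al a := lt_of_lt_of_le (div_pos hA (by linarith)) hi
  have hA'ne : A'.Nonempty := by
    rw [nonempty_iff_ne_empty]
    intro h
    rw [h, sum_empty] at hA'pos
    exact lt_irrefl _ hA'pos
  refine ⟨A', (filter_subset _ _).trans (filter_subset _ _), hA'ne, ?_, ?_⟩
  · rw [div_le_iff₀ (by linarith)] at hi
    have h1 : (K : ℝ) ≤ 2 * M + 2 := by
      rw [hK]
      push_cast
      have h2 : (⌊(M + log 2) / log 2⌋₊ : ℝ) ≤ (M + log 2) / log 2 :=
        Nat.floor_le (by positivity)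
      have h3 : (M + log 2) / log 2 ≤ 2 * M + 1 := by
        rw [div_le_iff₀ hlog2]
        have := log_two_gt_d9
        nlinarith
      linarith
    have h2 := mul_le_mul_of_nonneg_left h1 hA'pos.le
    linarith
  · intro a ha
    have haB := (mem_filter.1 ha).1
    have hla : ℓ a = i := (mem_filter.1 ha).2
    -- all elements of the level are at most twice `al a`
    have h1 : ∀ b ∈ A', al b ≤ 2 * al a := by
      intro b hb
      have hbB := (mem_filter.1 hb).1
      have hlb : ℓ b = i := (mem_filter.1 hb).2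
      have hpa := hBpos a haB
      have hpb := hBpos b hbB
      have h2 : (i : ℝ) ≤ log (S / al b) / log 2 := by
        rw [← hlb]
        refine Nat.floor_le (div_nonneg (log_nonneg ?_) hlog2.le)
        rw [le_div_iff₀ hpb, one_mul]
        exact hle b hbB
      have h3 : log (S / al a) / log 2 < i + 1 := by
        rw [← hla]
        exact Nat.lt_floor_add_one _
      rw [le_div_iff₀ hlog2] at h2
      rw [div_lt_iff₀ hlog2] at h3
      have h4 : log (S / al a) < log (S / al b) + log 2 := by linarith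
      rw [← log_mul (div_pos hA hpb).ne' (by norm_num)] at h4
      have h5 := (log_lt_log_iff (div_pos hA hpa) (by positivity)).1 h4
      rw [div_mul_eq_mul_div, div_lt_div_iff₀ hpa hpb] at h5
      have h6 : S * al b < S * (2 * al a) := by linarith
      exact (lt_of_mul_lt_mul_left h6 hA.le).le
    have h2 := sum_le_card_nsmul A' al (2 * al a) h1
    rw [nsmul_eq_mul] at h2
    linarith

end level

section density
variable {Γ : Type} (lam : Law Γ)

/-- the density hypothesis of `growth` from the cost of the unit -/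
theorem hd_of_cost {al : Γ → ℝ} {A : Finset Γ} {c M c2 : ℝ} (hM : 0 ≤ M)
    (hcost : lam.costLe A c) (hlev : ∀ a ∈ A, ∑ b ∈ A, al b ≤ 2 * A.card * al a)
    (hmass : exp (-c2) ≤ (4 * M + 4) * ∑ b ∈ A, al b) :
    ∀ ω, 0 < lam.μ ω →
      Pr lam.μ (fun ω => (lam.a ω, lam.z ω)) (lam.a ω, lam.z ω) ≤
        exp (c + c2 + log (8 * M + 8)) * al (lam.a ω) * Pr lam.μ lam.z (lam.z ω) := by
  intro ω _
  obtain ⟨h1, h2⟩ := hcost ω
  have h3 := hlev _ h1
  set P := Pr lam.μ (fun ω => (lam.a ω, lam.z ω)) (lam.a ω, lam.z ω) with hP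
  set z := Pr lam.μ lam.z (lam.z ω) with hz
  have hP0 : 0 ≤ P := Pr_nonneg lam.prob _ _
  have hz0 : 0 ≤ z := Pr_nonneg lam.prob _ _
  have hcard : (0 : ℝ) < A.card := by exact_mod_cast card_pos.2 ⟨_, h1⟩
  rw [exp_add, exp_add, exp_log (by linarith)]
  have h4 : 1 ≤ exp c2 * ((4 * M + 4) * ∑ b ∈ A, al b) := by
    have := mul_le_mul_of_nonneg_left hmass (exp_pos c2).le
    rwa [← exp_add, add_neg_cancel, exp_zero] at this
  -- `P * card ≤ e^c z` and `1 ≤ e^{c2} (4M+4) · 2 card · al`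
  have h5 : 1 ≤ exp c2 * ((4 * M + 4) * (2 * A.card * al (lam.a ω))) :=
    h4.trans (mul_le_mul_of_nonneg_left (mul_le_mul_of_nonneg_left h3 (by linarith))
      (exp_pos c2).le)
  have h6 : P * 1 ≤ P * (exp c2 * ((4 * M + 4) * (2 * A.card * al (lam.a ω)))) :=
    mul_le_mul_of_nonneg_left h5 hP0
  have hal : 0 ≤ al (lam.a ω) := by
    by_contra h
    push Not at h
    have : exp c2 * ((4 * M + 4) * (2 * A.card * al (lam.a ω))) ≤ 0 :=
      mul_nonpos_of_nonneg_of_nonpos (exp_pos _).le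
        (mul_nonpos_of_nonneg_of_nonpos (by linarith)
          (mul_nonpos_of_nonneg_of_nonpos (by positivity) h.le))
    linarith
  have h7 : P * (exp c2 * ((4 * M + 4) * (2 * A.card * al (lam.a ω)))) =
      (P * A.card) * (exp c2 * (8 * M + 8) * al (lam.a ω)) := by ring
  have h8 : (P * A.card) * (exp c2 * (8 * M + 8) * al (lam.a ω)) ≤
      (exp c * z) * (exp c2 * (8 * M + 8) * al (lam.a ω)) :=
    mul_le_mul_of_nonneg_right h2
      (mul_nonneg (mul_nonneg (exp_pos _).le (by linarith)) hal)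
  calc P = P * 1 := (mul_one P).symm
    _ ≤ (exp c * z) * (exp c2 * (8 * M + 8) * al (lam.a ω)) := by linarith
    _ = exp c * exp c2 * (8 * M + 8) * al (lam.a ω) * z := by ring

end density

section phi
variable {Γ : Type*} [AddCommGroup Γ] [Fintype Γ]

/-- a letter whose unexplained part is small has a large `φ` -/
theorem phi_ge {p : Γ → ℝ} (hp : IsProb p) (c : Γ → ℂ) {s : ℝ}
    (hs : ∑ r, p r * ‖1 - c r‖ ≤ s) (T : Finset Γ) (a : Γ)
    (hT : ∑ k ∈ T, p (k - a) < 3 / 4 - s) [DecidableEq Γ] :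
    1 / 4 ≤ ‖∑ k ∈ Tᶜ, (p (k - a) : ℂ) * c (k - a)‖ := by
  have h1 : ∑ k, p (k - a) = 1 := by
    rw [← hp.sum]
    exact Equiv.sum_comp (Equiv.subRight a) p
  have h2 : ∑ k, p (k - a) * ‖1 - c (k - a)‖ ≤ s := by
    refine le_trans (le_of_eq ?_) hs
    exact Equiv.sum_comp (Equiv.subRight a) fun r => p r * ‖1 - c r‖
  have h3 : ∑ k ∈ Tᶜ, p (k - a) = 1 - ∑ k ∈ T, p (k - a) := by
    rw [← h1, ← sum_add_sum_compl T]; ring
  have h4 : ∑ k ∈ Tᶜ, (p (k - a) : ℂ) * c (k - a) =
      ((∑ k ∈ Tᶜ, p (k - a) : ℝ) : ℂ) - ∑ k ∈ Tᶜ, (p (k - a) : ℂ) * (1 - c (k - a)) := by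
    push_cast
    rw [← sum_sub_distrib]
    exact sum_congr rfl fun k _ => by ring
  have h5 : ‖∑ k ∈ Tᶜ, (p (k - a) : ℂ) * (1 - c (k - a))‖ ≤ s := by
    refine (norm_sum_le _ _).trans (le_trans ?_ h2)
    refine (le_of_eq ?_).trans (sum_le_sum_of_subset_of_nonneg (subset_univ Tᶜ)
      fun k _ _ => mul_nonneg (hp.nonneg _) (norm_nonneg _))
    refine sum_congr rfl fun k _ => ?_
    rw [norm_mul, Complex.norm_real, norm_eq_abs, abs_of_nonneg (hp.nonneg _)]
  have h6 : ∑ k ∈ Tᶜ, p (k - a) ≤ ‖((∑ k ∈ Tᶜ, p (k - a) : ℝ) : ℂ)‖ := by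
    rw [Complex.norm_real]; exact le_abs_self _
  rw [h4]
  have h7 := norm_sub_norm_le ((∑ k ∈ Tᶜ, p (k - a) : ℝ) : ℂ)
    (∑ k ∈ Tᶜ, (p (k - a) : ℂ) * (1 - c (k - a)))
  linarith

end phi

end Vale.Agent.P091.T.H257
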